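import Vale.Agent.P356.Adm

/-! Strict area law for frustration-free ground states with gapped band restrictions. -/

open Finset Vale.Agent.P356

theorem Vale.Agent.Results.P356.FFArea.result (q R : ℕ) (J Δ : ℝ) (hΔ : 0 < Δ) :
    ∃ C : ℝ, ∀ (L : ℕ) (h : Finset (Site L) → Matrix (Site L → Fin q) (Site L → Fin q) ℂ)
      (m : Finset (Site L) → ℝ) (Ω : (Site L → Fin q) → ℂ), LocalTerms R J h →
      GroundGap (∑ X ∈ terms L R, h X) Ω Δ → FrustrationFree R h m Ω →
      ((∀ a b : ℕ, GapAboveKernel (restr R h m (rowBand L a b)) Δ) →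
        ∀ c : ℕ, entropy (leftPart L c) Ω ≤ C * bdry (leftPart L c)) ∧
      ((∀ a b : ℕ, GapAboveKernel (restr R h m (diagBand L a b)) Δ) →
        ∀ a b c d : ℕ, entropy (rect L a b c d) Ω ≤ C * bdry (rect L a b c d)) := by
  obtain ⟨C, hC⟩ := area_law q R |J| Δ hΔ
  exact ⟨C, fun L h m Ω H => hC L h m Ω (admissible_of_localTerms H)⟩
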