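import Vale.Agent.P356.Adm
import Vale.Agent.P356.Sub
import Vale.Agent.P356.Pur
import Vale.Agent.P356.Dya

/-! Area law for frustration-free ground states with gapped band restrictions: strict for
vertical cuts and rectangles, up to one logarithm for arbitrary regions. -/

open Finset Vale.Agent.P356

theorem Vale.Agent.Results.P356.FFAreaAll.result (q R : ℕ) (J Δ : ℝ) (hΔ : 0 < Δ) :
    ∃ C : ℝ, ∀ (L : ℕ) (h : Finset (Site L) → Matrix (Site L → Fin q) (Site L → Fin q) ℂ)
      (m : Finset (Site L) → ℝ) (Ω : (Site L → Fin q) → ℂ), LocalTerms R J h →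
      GroundGap (∑ X ∈ terms L R, h X) Ω Δ → FrustrationFree R h m Ω →
      ((∀ a b : ℕ, GapAboveKernel (restr R h m (rowBand L a b)) Δ) →
        ∀ c : ℕ, entropy (leftPart L c) Ω ≤ C * bdry (leftPart L c)) ∧
      ((∀ a b : ℕ, GapAboveKernel (restr R h m (diagBand L a b)) Δ) →
        (∀ a b c d : ℕ, entropy (rect L a b c d) Ω ≤ C * bdry (rect L a b c d)) ∧
        ∀ A : Finset (Site L), entropy A Ω ≤ C * bdry A * Real.log (2 + bdry A)) := by
  obtain ⟨C, hC⟩ := area_law q R |J| Δ hΔ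
  obtain ⟨c, hc, hd⟩ := dyadic
  have h0 : 0 ≤ max C 0 := le_max_right _ _
  refine ⟨max (max C 0) (c * max C 0), fun L h m Ω H hG hF => ?_⟩
  obtain ⟨h1, h2⟩ := hC L h m Ω (admissible_of_localTerms H) hG hF
  have hle : ∀ A : Finset (Site L), C * bdry A ≤ max C 0 * bdry A := fun A =>
    mul_le_mul_of_nonneg_right (le_max_left _ _) (Nat.cast_nonneg _)
  have hle' : ∀ A : Finset (Site L), C * bdry A ≤ max (max C 0) (c * max C 0) * bdry A := fun A =>
    (hle A).trans (mul_le_mul_of_nonneg_right (le_max_left _ _) (Nat.cast_nonneg _))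
  refine ⟨fun hg x => (h1 hg x).trans (hle' _),
    fun hg => ⟨fun a b x d => (h2 hg a b x d).trans (hle' _), fun A => ?_⟩⟩
  refine (hd L (fun A => entropy A Ω) (max C 0) h0 (fun A B hAB => entropy_union_le hAB Ω hG.1)
    (fun A => entropy_compl A Ω) (fun a b x d => (h2 hg a b x d).trans (hle _)) A).trans ?_
  have hl : 0 ≤ Real.log (2 + bdry A) :=
    Real.log_nonneg (by linarith [(Nat.cast_nonneg (bdry A) : (0 : ℝ) ≤ _)])
  exact mul_le_mul_of_nonneg_right
    (mul_le_mul_of_nonneg_right (le_max_right _ _) (Nat.cast_nonneg _)) hl
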